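import Vale.Agent.H11.Tingley6

/-!
Tingley's problem for polyhedral Banach spaces of arbitrary dimension.
-/

namespace Vale.Agent.Results.P084.Polyhedral

universe u v

/-- `X` is polyhedral: the closed unit ball of every two-dimensional subspace `V` of `X` is a
polygon, i.e. a finite intersection of closed half-planes `{φ ≤ 1}`. -/
def PolyhedralSpace (X : Type u) [NormedAddCommGroup X] [NormedSpace ℝ X] : Prop :=
  ∀ V : Submodule ℝ X, Module.finrank ℝ V = 2 →
    ∃ s : Finset (V →ₗ[ℝ] ℝ), ∀ v : V, ‖v‖ ≤ 1 ↔ ∀ φ ∈ s, φ v ≤ 1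

/-- If `X` or `Y` is a polyhedral Banach space (of any dimension), then every surjective isometry
between the unit spheres of `X` and `Y` is the restriction of a surjective linear isometry. -/
theorem result (X : Type u) [NormedAddCommGroup X] [NormedSpace ℝ X] [CompleteSpace X]
    (Y : Type v) [NormedAddCommGroup Y] [NormedSpace ℝ Y] [CompleteSpace Y]
    (h : PolyhedralSpace X ∨ PolyhedralSpace Y)
    (f : Metric.sphere (0 : X) 1 → Metric.sphere (0 : Y) 1)
    (hf : Isometry f) (hs : Function.Surjective f) :
    ∃ T : X ≃ₗᵢ[ℝ] Y, ∀ x : Metric.sphere (0 : X) 1, T x = f x := by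
  rcases h with h | h
  · exact Vale.Agent.H11.Tingley.mazurUlam_of_polygonal h f hf hs
  · let e : Metric.sphere (0 : X) 1 ≃ Metric.sphere (0 : Y) 1 :=
      Equiv.ofBijective f ⟨hf.injective, hs⟩
    have he : Isometry e.symm := by
      apply Isometry.of_dist_eq
      intro a b
      have h1 := hf.dist_eq (e.symm a) (e.symm b)
      have h2 : f (e.symm a) = a := e.apply_symm_apply a
      have h3 : f (e.symm b) = b := e.apply_symm_apply b
      rw [h2, h3] at h1
      exact h1.symm
    obtain ⟨T, hT⟩ :=
      Vale.Agent.H11.Tingley.mazurUlam_of_polygonal h e.symm he e.symm.surjective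
    refine ⟨T.symm, fun x => ?_⟩
    have h1 := hT (f x)
    have h2 : e.symm (f x) = x := e.symm_apply_apply x
    rw [h2] at h1
    rw [← h1, LinearIsometryEquiv.symm_apply_apply]

end Vale.Agent.Results.P084.Polyhedral
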