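import Vale.Agent.H11.TT.Main

/-!
Tingley's problem for finite-dimensional strictly convex spaces with a twice continuously
differentiable norm.
-/

namespace Vale.Agent.Results.P084.SmoothRound

universe u v

/-- Finite-dimensional strictly convex spaces of dimension at least three whose norm is of class
`C²` off the origin. -/
structure RoundC2Space (X : Type u) [NormedAddCommGroup X] [NormedSpace ℝ X] : Prop where
  finite : FiniteDimensional ℝ X
  three_le : 3 ≤ Module.finrank ℝ X
  strict : StrictConvexSpace ℝ X
  smooth : ContDiffOn ℝ 2 (fun x : X => ‖x‖) {0}ᶜ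

/-- If `X` or `Y` is finite-dimensional of dimension at least three, strictly convex, with a `C²`
norm, then every surjective isometry between the unit spheres of `X` and `Y` is the restriction of
a surjective linear isometry. -/
theorem result (X : Type u) [NormedAddCommGroup X] [NormedSpace ℝ X]
    (Y : Type v) [NormedAddCommGroup Y] [NormedSpace ℝ Y]
    (h : RoundC2Space X ∨ RoundC2Space Y)
    (f : Metric.sphere (0 : X) 1 → Metric.sphere (0 : Y) 1)
    (hf : Isometry f) (hs : Function.Surjective f) :
    ∃ T : X ≃ₗᵢ[ℝ] Y, ∀ x : Metric.sphere (0 : X) 1, T x = f x := by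
  rcases h with h | h
  · have h1 := h.finite
    have h2 := h.strict
    exact Vale.Agent.H11.TT.mazurUlam_of_C2 h.smooth h.three_le f hf hs
  · let e : Metric.sphere (0 : X) 1 ≃ Metric.sphere (0 : Y) 1 :=
      Equiv.ofBijective f ⟨hf.injective, hs⟩
    have he : Isometry e.symm := by
      apply Isometry.of_dist_eq
      intro a b
      have h1 := hf.dist_eq (e.symm a) (e.symm b)
      have h2 : f (e.symm a) = a := e.apply_symm_apply a
      have h3 : f (e.symm b) = b := e.apply_symm_apply b
      rw [h2, h3] at h1
      exact h1.symm
    have h1 := h.finite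
    have h2 := h.strict
    obtain ⟨T, hT⟩ :=
      Vale.Agent.H11.TT.mazurUlam_of_C2 h.smooth h.three_le e.symm he e.symm.surjective
    refine ⟨T.symm, fun x => ?_⟩
    have h1 := hT (f x)
    have h2 : e.symm (f x) = x := e.symm_apply_apply x
    rw [h2] at h1
    rw [← h1, LinearIsometryEquiv.symm_apply_apply]

end Vale.Agent.Results.P084.SmoothRound
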